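import Mathlib

open Finset

namespace Vale.Agent.P069

noncomputable section
open Classical

def V := {p : ℕ × List ℕ // p.2.length ≤ p.1}

instance : PartialOrder V where
  le u v := u.1.1 = v.1.1 ∧ u.1.2 <+: v.1.2
  le_refl _ := ⟨rfl, List.prefix_rfl⟩
  le_trans _ _ _ h k := ⟨h.1.trans k.1, h.2.trans k.2⟩
  le_antisymm _ _ h k := Subtype.ext (Prod.ext h.1 (h.2.eq_of_length_le k.2.length_le))

lemma tot {u v w : V} (h : u ≤ w) (k : v ≤ w) : u ≤ v ∨ v ≤ u :=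
  (List.prefix_or_prefix_of_prefix h.2 k.2).imp (fun e => ⟨h.1.trans k.1.symm, e⟩)
    fun e => ⟨k.1.trans h.1.symm, e⟩

lemma len_inj {u v : V} (h : u ≤ v ∨ v ≤ u) (e : u.1.2.length = v.1.2.length) : u = v := by
  rcases h with h | h
  · exact Subtype.ext (Prod.ext h.1 (h.2.eq_of_length e))
  · exact (Subtype.ext (Prod.ext h.1 (h.2.eq_of_length e.symm))).symm

lemma fin_down (v : V) : {u | u ≤ v}.Finite :=
  Set.Finite.of_finite_image (f := fun u : V => u.1.2.length)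
    ((Set.finite_le_nat v.1.2.length).subset fun _ ⟨_, hu, e⟩ => e ▸ hu.2.length_le)
    fun _ hu _ hw e => len_inj (tot hu hw) e

def D (v : V) : Finset V := (fin_down v).toFinset

@[simp] lemma mem_D {u v : V} : u ∈ D v ↔ u ≤ v := by simp [D]

def Seg (S : Finset V) : Prop :=
  (∀ u ∈ S, ∀ v ∈ S, u ≤ v ∨ v ≤ u) ∧ ∀ u ∈ S, ∀ w ∈ S, ∀ v, u ≤ v → v ≤ w → v ∈ S

lemma Seg.filter {S : Finset V} (h : Seg S) (p : V → Prop) [DecidablePred p]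
    (hp : ∀ u v w, p u → p w → u ≤ v → v ≤ w → p v) : Seg (S.filter p) :=
  ⟨fun u hu v hv => h.1 u (mem_filter.mp hu).1 v (mem_filter.mp hv).1, fun u hu w hw v a b =>
    mem_filter.mpr ⟨h.2 u (mem_filter.mp hu).1 w (mem_filter.mp hw).1 v a b,
      hp u v w (mem_filter.mp hu).2 (mem_filter.mp hw).2 a b⟩⟩

lemma seg_D (v : V) : Seg (D v) :=
  ⟨fun _ hu _ hw => tot (mem_D.mp hu) (mem_D.mp hw),
    fun _ _ _ hw _ _ b => mem_D.mpr (b.trans (mem_D.mp hw))⟩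

lemma seg_single (v : V) : Seg {v} :=
  ⟨by simp, fun u hu w hw z a b => by
    rw [mem_singleton] at *; subst hu; subst hw; exact le_antisymm b a⟩

lemma seg_empty : Seg ∅ := ⟨by simp, by simp⟩

lemma Seg.card_le {S : Finset V} (h : Seg S) {n : ℕ} (hn : ∀ u ∈ S, u.1.1 < n) : S.card ≤ n := by
  rw [← card_range n]
  exact card_le_card_of_injOn (fun u => u.1.2.length)
    (fun u hu => by simpa using u.2.trans_lt (hn u hu)) fun u hu v hv e => len_inj (h.1 u hu v hv) e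

lemma Seg.top {S : Finset V} (h : Seg S) (hS : S.Nonempty) : ∃ m ∈ S, ∀ u ∈ S, u ≤ m := by
  obtain ⟨m, hm, hx⟩ := S.exists_max_image (fun u => u.1.2.length) hS
  exact ⟨m, hm, fun u hu => (h.1 u hu m hm).elim id fun k =>
    (len_inj (Or.inl k) (le_antisymm k.2.length_le (hx u hu))).ge⟩

lemma Seg.bot {S : Finset V} (h : Seg S) (hS : S.Nonempty) : ∃ m ∈ S, ∀ u ∈ S, m ≤ u := by
  obtain ⟨m, hm, hx⟩ := S.exists_min_image (fun u => u.1.2.length) hS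
  exact ⟨m, hm, fun u hu => (h.1 m hm u hu).elim id fun k =>
    (len_inj (Or.inl k) (le_antisymm k.2.length_le (hx u hu))).ge⟩

def Fam (𝒮 : Finset (Finset V)) : Prop :=
  (∀ S ∈ 𝒮, Seg S) ∧ ∀ S ∈ 𝒮, ∀ T ∈ 𝒮, S ≠ T → Disjoint S T

def Bd (a : V → ℝ) (C : ℝ) : Prop := ∀ 𝒮, Fam 𝒮 → ∑ S ∈ 𝒮, (∑ v ∈ S, a v) ^ 2 ≤ C

lemma Bd.idx {a : V → ℝ} {C : ℝ} (h : Bd a C) {ι : Type} (s : Finset ι) (S : ι → Finset V)
    (h1 : ∀ i ∈ s, Seg (S i)) (h2 : ∀ i ∈ s, ∀ j ∈ s, i ≠ j → Disjoint (S i) (S j)) :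
    ∑ i ∈ s, (∑ v ∈ S i, a v) ^ 2 ≤ C := by
  rw [← sum_filter_of_ne (p := fun i => (S i).Nonempty) (fun i _ hi => by
    by_contra hc; rw [not_nonempty_iff_eq_empty] at hc; simp [hc] at hi),
    ← sum_image (f := fun T => (∑ v ∈ T, a v) ^ 2) (fun i hi j hj e => by
      by_contra hc
      have := h2 i (mem_filter.mp hi).1 j (mem_filter.mp hj).1 hc
      rw [e, disjoint_self] at this
      exact (mem_filter.mp hj).2.ne_empty this)]
  refine h _ ⟨fun T hT => ?_, fun T hT U hU e => ?_⟩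
  · obtain ⟨i, hi, rfl⟩ := mem_image.mp hT; exact h1 i (mem_filter.mp hi).1
  · obtain ⟨i, hi, rfl⟩ := mem_image.mp hT
    obtain ⟨j, hj, rfl⟩ := mem_image.mp hU
    exact h2 i (mem_filter.mp hi).1 j (mem_filter.mp hj).1 fun k => e (k ▸ rfl)

lemma Bd.nonneg {a : V → ℝ} {C : ℝ} (h : Bd a C) : 0 ≤ C := by
  simpa using h ∅ ⟨by simp, by simp⟩

lemma Bd.sq_le {a : V → ℝ} {C : ℝ} (h : Bd a C) (s : Finset V) : ∑ v ∈ s, a v ^ 2 ≤ C := by
  simpa using h.idx s (fun v => {v}) (fun v _ => seg_single v) fun i _ j _ e => by simpa using e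

lemma Bd.filter {a : V → ℝ} {C : ℝ} (h : Bd a C) (p : V → Prop) [DecidablePred p]
    (hp : ∀ u v w, p u → p w → u ≤ v → v ≤ w → p v) : Bd (fun v => if p v then a v else 0) C := by
  intro 𝒮 h𝒮
  simp only [← sum_filter]
  exact h.idx 𝒮 (fun S => S.filter p) (fun S hS => (h𝒮.1 S hS).filter p hp) fun S hS T hT e =>
    disjoint_filter_filter (h𝒮.2 S hS T hT e)

lemma Bd.add {a b : V → ℝ} {A B : ℝ} (hA : 0 ≤ A) (hB : 0 ≤ B) (h : Bd a (A ^ 2))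
    (k : Bd b (B ^ 2)) : Bd (a + b) ((A + B) ^ 2) := by
  intro 𝒮 h𝒮
  have h1 := h 𝒮 h𝒮
  have h2 := k 𝒮 h𝒮
  have h3 := sum_mul_sq_le_sq_mul_sq 𝒮 (fun S => ∑ v ∈ S, a v) fun S => ∑ v ∈ S, b v
  have h4 : ∑ S ∈ 𝒮, (∑ v ∈ S, a v) * ∑ v ∈ S, b v ≤ A * B :=
    abs_le_of_sq_le_sq' (h3.trans (by rw [mul_pow]; gcongr)) (by positivity) |>.2
  simp only [Pi.add_apply, sum_add_distrib, add_sq, mul_assoc, ← mul_sum]
  linarith

lemma Bd.smul {a : V → ℝ} {C : ℝ} (h : Bd a C) (c : ℝ) : Bd (c • a) (c ^ 2 * C) := by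
  intro 𝒮 h𝒮
  simp only [Pi.smul_apply, smul_eq_mul, ← mul_sum, mul_pow]
  exact mul_le_mul_of_nonneg_left (h 𝒮 h𝒮) (sq_nonneg _)

/-- short segments -/
lemma bd_low {a : V → ℝ} {n : ℕ} {C : ℝ} (h0 : ∀ v, a v ≠ 0 → v.1.1 < n)
    (hC : ∀ s : Finset V, ∑ v ∈ s, a v ^ 2 ≤ C) : Bd a (n * C) := by
  intro 𝒮 h𝒮
  calc _ ≤ ∑ S ∈ 𝒮, (n : ℝ) * ∑ v ∈ S, a v ^ 2 := by
        refine sum_le_sum fun S hS => ?_
        rw [← sum_filter_of_ne (p := fun v : V => v.1.1 < n) fun v _ => h0 v]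
        refine (sq_sum_le_card_mul_sum_sq).trans (mul_le_mul ?_ ?_ (by positivity) (by positivity))
        · exact_mod_cast ((h𝒮.1 S hS).filter (fun v : V => v.1.1 < n) fun u v w hu _ k _ => k.1 ▸ hu).card_le
            fun u hu => (mem_filter.mp hu).2
        · exact sum_le_sum_of_subset_of_nonneg (filter_subset _ _) fun _ _ _ => sq_nonneg _
    _ ≤ _ := by
        rw [← mul_sum, ← sum_biUnion (t := fun S => S) fun S hS T hT e => h𝒮.2 S hS T hT e]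
        exact mul_le_mul_of_nonneg_left (hC _) (by positivity)

/-- orthogonality of low and high trees -/
lemma bd_orth {a b : V → ℝ} {n : ℕ} {A B : ℝ} (ha : ∀ v, a v ≠ 0 → v.1.1 < n)
    (hb : ∀ v, v.1.1 < n → b v = 0) (h : Bd a A) (k : Bd b B) : Bd (a + b) (A + B) := by
  intro 𝒮 h𝒮
  refine le_trans (le_of_eq ?_) (add_le_add (h 𝒮 h𝒮) (k 𝒮 h𝒮))
  rw [← sum_add_distrib]
  refine sum_congr rfl fun S hS => ?_
  simp only [Pi.add_apply, sum_add_distrib]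
  by_cases hc : ∃ u ∈ S, u.1.1 < n
  · obtain ⟨u, hu, hn⟩ := hc
    rw [sum_eq_zero (f := b) fun v hv => hb v (((h𝒮.1 S hS).1 u hu v hv).elim
      (fun e => e.1 ▸ hn) fun e => e.1 ▸ hn)]
    ring
  · push Not at hc
    rw [sum_eq_zero (f := a) fun v hv => by
      by_contra e; exact absurd (ha v e) (not_lt.mpr (hc v hv))]
    ring

def Y := V →₀ ℝ

instance : AddCommGroup Y := inferInstanceAs (AddCommGroup (V →₀ ℝ))
instance : Module ℝ Y := inferInstanceAs (Module ℝ (V →₀ ℝ))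

def Y.f (a : Y) : V →₀ ℝ := a

lemma ex_bd (a : V →₀ ℝ) : ∃ C, Bd a C := by
  refine ⟨_, bd_low (n := a.support.sup (fun v => v.1.1) + 1) (C := ∑ v ∈ a.support, a v ^ 2)
    (fun v hv => Nat.lt_succ_of_le (le_sup (f := fun v : V => v.1.1)
      (Finsupp.mem_support_iff.mpr hv))) fun s => ?_⟩
  rw [← sum_filter_of_ne (p := fun v => v ∈ a.support) fun v _ hv => by
    rw [Finsupp.mem_support_iff]; intro e; simp [e] at hv]
  exact sum_le_sum_of_subset_of_nonneg (fun v hv => (mem_filter.mp hv).2) fun _ _ _ => sq_nonneg _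

def J2 (a : V → ℝ) : ℝ := sSup {r | ∃ 𝒮, Fam 𝒮 ∧ r = ∑ S ∈ 𝒮, (∑ v ∈ S, a v) ^ 2}

lemma J2_ne (a : V → ℝ) : {r | ∃ 𝒮, Fam 𝒮 ∧ r = ∑ S ∈ 𝒮, (∑ v ∈ S, a v) ^ 2}.Nonempty :=
  ⟨_, ∅, ⟨by simp, by simp⟩, rfl⟩

lemma Bd.J2 {a : V → ℝ} {C : ℝ} (h : Bd a C) : Bd a (J2 a) := fun 𝒮 h𝒮 =>
  le_csSup ⟨C, fun _ ⟨𝒯, k, e⟩ => e ▸ h 𝒯 k⟩ ⟨𝒮, h𝒮, rfl⟩

lemma Bd.J2_le {a : V → ℝ} {C : ℝ} (h : Bd a C) : P069.J2 a ≤ C :=
  csSup_le (J2_ne a) fun _ ⟨𝒯, k, e⟩ => e ▸ h 𝒯 k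

lemma bdJ (a : V →₀ ℝ) : Bd a (√(J2 a) ^ 2) := by
  obtain ⟨C, h⟩ := ex_bd a
  rw [Real.sq_sqrt h.J2.nonneg]; exact h.J2

lemma J_le {a : V → ℝ} {C : ℝ} (hC : 0 ≤ C) (h : Bd a (C ^ 2)) : √(J2 a) ≤ C :=
  Real.sqrt_le_iff.mpr ⟨hC, h.J2_le⟩

instance : NormedAddCommGroup Y := AddGroupNorm.toNormedAddCommGroup
  { toFun := fun a => √(J2 a.f)
    map_zero' := le_antisymm (J_le le_rfl fun 𝒮 _ => by
      simp [show ∀ v, (0 : Y).f v = 0 from fun _ => rfl]) (Real.sqrt_nonneg _)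
    add_le' := fun a b => J_le (by positivity)
      (Bd.add (by positivity) (by positivity) (bdJ a.f) (bdJ b.f))
    neg' := fun a => by
      have e : ∀ v, (-a).f v = -a.f v := fun _ => rfl
      simp only [J2, e, sum_neg_distrib, neg_sq]
    eq_zero_of_map_eq_zero' := fun a h => Finsupp.ext fun v => by
      have := (bdJ a.f).sq_le {v}
      rw [h] at this
      have e : a.f v = 0 := by simpa using this
      exact e }

lemma bdN (a : Y) : Bd a.f (‖a‖ ^ 2) := bdJ a.f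

lemma N_le {a : Y} {C : ℝ} (hC : 0 ≤ C) (h : Bd a.f (C ^ 2)) : ‖a‖ ≤ C := J_le hC h

instance : NormedSpace ℝ Y where
  norm_smul_le c a := N_le (by positivity) (by
    rw [mul_pow, Real.norm_eq_abs, sq_abs]; exact (bdN a).smul c)

end

end Vale.Agent.P069
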