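import Vale.Agent.P069.Base

open Finset

namespace Vale.Agent.P069

noncomputable section
open Classical

abbrev X := StrongDual ℝ Y

def e (v : V) : Y := Finsupp.single v 1

def mk (s : Finset V) (w : V → ℝ) : Y :=
  Finsupp.onFinset s (fun v => if v ∈ s then w v else 0) fun v hv => by by_contra h; simp [h] at hv

@[simp] lemma mk_f (s : Finset V) (w : V → ℝ) (v : V) :
    (mk s w).f v = if v ∈ s then w v else 0 := rfl

def cut (p : V → Prop) (a : Y) : Y := Finsupp.filter p a.f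

@[simp] lemma cut_f (p : V → Prop) (a : Y) (v : V) :
    (cut p a).f v = if p v then a.f v else 0 := rfl

lemma cut_add (p : V → Prop) (a : Y) : cut p a + cut (fun v => ¬ p v) a = a :=
  Finsupp.ext fun v => by
    change (cut p a).f v + (cut (fun v => ¬ p v) a).f v = a.f v
    by_cases h : p v <;> simp [h]

lemma cut_le (p : V → Prop) (hp : ∀ u v w, p u → p w → u ≤ v → v ≤ w → p v) (a : Y) :
    ‖cut p a‖ ≤ ‖a‖ := N_le (norm_nonneg _) ((bdN a).filter p hp)

lemma seg_le {S : Finset V} (h : Seg S) (a : Y) : |∑ v ∈ S, a.f v| ≤ ‖a‖ :=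
  abs_le_of_sq_le_sq' (by simpa using bdN a {S} ⟨by simpa, by simp⟩) (norm_nonneg _) |> abs_le.mpr

def ev (v : V) : X := LinearMap.mkContinuous (Finsupp.lapply v : (V →₀ ℝ) →ₗ[ℝ] ℝ) 1 fun a => by
  have := seg_le (seg_single v) a
  rw [sum_singleton] at this
  rw [one_mul]; exact this

@[simp] lemma ev_apply (v : V) (a : Y) : ev v a = a.f v := rfl

lemma expand (x : X) (a : Y) (s : Finset V) (h : ∀ v, a.f v ≠ 0 → v ∈ s) :
    x a = ∑ v ∈ s, a.f v * x (e v) := by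
  have : a = ∑ v ∈ s, a.f v • e v := by
    refine Finsupp.ext fun u => ?_
    change ev u a = ev u _
    rw [map_sum]
    simp only [map_smul, ev_apply, smul_eq_mul]
    change _ = ∑ v ∈ s, a.f v * (Finsupp.single v (1 : ℝ)) u
    simp only [Finsupp.single_apply, mul_ite, mul_one, mul_zero, sum_ite_eq']
    split_ifs with hu
    · rfl
    · by_contra hc; exact hu (h u hc)
  conv_lhs => rw [this]
  simp [map_sum]

lemma upper {ι : Type} (s : Finset ι) (S : ι → Finset V) (h1 : ∀ i ∈ s, Seg (S i))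
    (h2 : ∀ i ∈ s, ∀ j ∈ s, i ≠ j → Disjoint (S i) (S j)) (c : ι → ℝ) :
    ‖∑ i ∈ s, c i • ∑ v ∈ S i, ev v‖ ≤ √(∑ i ∈ s, c i ^ 2) := by
  refine ContinuousLinearMap.opNorm_le_bound _ (by positivity) fun a => ?_
  simp only [_root_.sum_apply, _root_.smul_apply, ev_apply, smul_eq_mul]
  refine abs_le.mpr (abs_le_of_sq_le_sq' ((sum_mul_sq_le_sq_mul_sq _ _ _).trans ?_) (by positivity))
  rw [mul_pow, Real.sq_sqrt (by positivity)]
  exact mul_le_mul_of_nonneg_left ((bdN a).idx s S h1 h2) (by positivity)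

lemma sum_le_of_upper {ι : Type} (s : Finset ι) (S : ι → Finset V) (h1 : ∀ i ∈ s, Seg (S i))
    (h2 : ∀ i ∈ s, ∀ j ∈ s, i ≠ j → Disjoint (S i) (S j)) (ξ : StrongDual ℝ X) :
    ∑ i ∈ s, (∑ v ∈ S i, ξ (ev v)) ^ 2 ≤ ‖ξ‖ ^ 2 := by
  have h3 := upper s S h1 h2 fun i => ∑ v ∈ S i, ξ (ev v)
  have h4 := (le_abs_self _).trans ((ξ.le_opNorm _).trans (mul_le_mul_of_nonneg_left h3 (norm_nonneg _)))
  simp only [map_sum, map_smul, smul_eq_mul, ← sq] at h4
  generalize hZ : ∑ i ∈ s, (∑ v ∈ S i, ξ (ev v)) ^ 2 = Z at *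
  have h0 : 0 ≤ Z := hZ ▸ by positivity
  have h5 := Real.sq_sqrt h0
  nlinarith [sq_nonneg (‖ξ‖ - √Z)]

def dn (B : Finset V) : Finset V := B.biUnion D

lemma sub_dn {B : Finset V} {v : V} (h : v ∈ B) : v ∈ dn B := mem_biUnion.mpr ⟨v, h, by simp⟩

lemma dn_down {B : Finset V} {u v : V} (h : v ∈ dn B) (k : u ≤ v) : u ∈ dn B := by
  obtain ⟨w, h1, h2⟩ := mem_biUnion.mp h
  exact mem_biUnion.mpr ⟨w, h1, mem_D.mpr (k.trans (mem_D.mp h2))⟩

lemma lt_sup (B : Finset V) : ∃ n, ∀ v ∈ B, v.1.1 < n :=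
  ⟨_, fun v hv => Nat.lt_succ_of_le (le_sup (f := fun v : V => v.1.1) hv)⟩

lemma vanish {w : V → ℝ} {C : ℝ} (h : ∀ s : Finset V, ∑ v ∈ s, w v ^ 2 ≤ C) {ε : ℝ} (hε : 0 < ε) :
    ∃ B : Finset V, ∀ s : Finset V, ∑ v ∈ s, (if v ∈ B then 0 else w v) ^ 2 ≤ ε := by
  obtain ⟨B, hB⟩ := summable_iff_vanishing_norm.mp
    (summable_of_sum_le (fun v => sq_nonneg (w v)) h) ε hε
  refine ⟨B, fun s => le_trans (le_of_eq ?_) ((le_abs_self _).trans
    (hB (s.filter (· ∉ B)) (disjoint_left.mpr fun v hv => (mem_filter.mp hv).2)).le)⟩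
  rw [sum_filter]
  exact sum_congr rfl fun v _ => by split_ifs <;> simp_all

lemma tailX (x : X) {ε : ℝ} (hε : 0 < ε) :
    ∃ B : Finset V, ∀ a : Y, (∀ v ∈ B, a.f v = 0) → |x a| ≤ 2 * ε * ‖a‖ := by
  by_cases hL : ‖x‖ ≤ ε
  · exact ⟨∅, fun a _ => (x.le_opNorm a).trans (by nlinarith [norm_nonneg a])⟩
  push Not at hL
  obtain ⟨a0, h1, h2⟩ := x.exists_lt_apply_of_lt_opNorm (r := √(‖x‖ ^ 2 - ε ^ 2))
    ((Real.sqrt_lt' (by linarith)).mpr (by nlinarith))
  have h3 : ‖x‖ ^ 2 - ε ^ 2 < x a0 ^ 2 := by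
    have := (Real.sqrt_lt' (lt_of_le_of_lt (Real.sqrt_nonneg _) h2)).mp h2
    rwa [Real.norm_eq_abs, sq_abs] at this
  obtain ⟨n, hn⟩ := lt_sup a0.f.support
  have high : ∀ a : Y, (∀ v : V, v.1.1 < n → a.f v = 0) → |x a| ≤ ε * ‖a‖ := by
    intro a ha
    have b0 : Bd a0.f 1 := fun 𝒮 h => (bdN a0 𝒮 h).trans (by nlinarith [norm_nonneg a0])
    have b1 := bd_orth (n := n) (fun v hv => hn v (Finsupp.mem_support_iff.mpr fun k => hv (by
      simp [k]))) (fun v hv => by simp [ha v hv]) (b0.smul (x a0 * ‖a‖ ^ 2)) ((bdN a).smul (x a))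
    have b2 : ‖(x a0 * ‖a‖ ^ 2) • a0 + x a • a‖ ^ 2 ≤ _ :=
      (Real.sq_sqrt b1.J2.nonneg).le.trans b1.J2_le
    have b3 := pow_le_pow_left₀ (norm_nonneg _) (x.le_opNorm ((x a0 * ‖a‖ ^ 2) • a0 + x a • a)) 2
    rw [Real.norm_eq_abs, sq_abs, mul_pow, map_add, map_smul, map_smul, smul_eq_mul, smul_eq_mul] at b3
    have b4 := b3.trans (mul_le_mul_of_nonneg_left b2 (sq_nonneg _))
    refine abs_le.mpr (abs_le_of_sq_le_sq' ?_ (by positivity))
    by_contra hc
    push Not at hc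
    have b5 : 0 < x a0 ^ 2 * ‖a‖ ^ 2 + x a ^ 2 := by nlinarith [sq_nonneg (ε * ‖a‖), sq_nonneg (x a0 * ‖a‖)]
    have b6 : (x a0 ^ 2 * ‖a‖ ^ 2 + x a ^ 2) * (x a0 ^ 2 * ‖a‖ ^ 2 + x a ^ 2) ≤
        (‖x‖ ^ 2 * ‖a‖ ^ 2) * (x a0 ^ 2 * ‖a‖ ^ 2 + x a ^ 2) := by linarith
    have b7 := le_of_mul_le_mul_right b6 b5
    nlinarith [mul_le_mul_of_nonneg_right h3.le (sq_nonneg ‖a‖)]
  let w : V → ℝ := fun v => if v.1.1 < n then x (e v) else 0
  have hw : ∀ s : Finset V, ∑ v ∈ s, w v ^ 2 ≤ n * ‖x‖ ^ 2 := by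
    intro s
    have c1 : x (mk s w) = ∑ v ∈ s, w v ^ 2 := by
      rw [expand x _ s fun v hv => by by_contra k; simp [k] at hv]
      refine sum_congr rfl fun v hv => ?_
      simp only [mk_f, if_pos hv, w]; split_ifs <;> ring
    have c2 : Bd (mk s w).f (n * ∑ v ∈ s, w v ^ 2) := bd_low (fun v hv => by
      by_contra k; simp [w, k] at hv) fun t => by
        simp only [mk_f, ite_pow, ne_eq, OfNat.ofNat_ne_zero, not_false_eq_true, zero_pow,
          sum_ite_mem]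
        exact sum_le_sum_of_subset_of_nonneg inter_subset_right fun _ _ _ => sq_nonneg _
    have c3 : ‖mk s w‖ ^ 2 ≤ _ := (Real.sq_sqrt c2.J2.nonneg).le.trans c2.J2_le
    have c4 := pow_le_pow_left₀ (norm_nonneg _) (x.le_opNorm (mk s w)) 2
    rw [Real.norm_eq_abs, sq_abs, mul_pow, c1] at c4
    have c5 := c4.trans (mul_le_mul_of_nonneg_left c3 (sq_nonneg _))
    generalize hZ : ∑ v ∈ s, w v ^ 2 = Z at *
    have h0 : 0 ≤ Z := hZ ▸ by positivity
    rcases h0.eq_or_lt with rfl | h0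
    · positivity
    · exact le_of_mul_le_mul_right (by linarith) h0
  obtain ⟨B, hB⟩ := vanish hw (ε := ε ^ 2) (by positivity)
  refine ⟨B, fun a ha => ?_⟩
  have d1 := high (cut (fun v => ¬ v.1.1 < n) a) fun v hv => by simp [hv]
  have d2 := cut_le (fun v => ¬ v.1.1 < n) (fun u v w hu _ k _ => k.1 ▸ hu) a
  have d3 : |x (cut (fun v => v.1.1 < n) a)| ≤ ε * ‖a‖ := by
    rw [expand x _ a.f.support fun v hv => by
      rw [Finsupp.mem_support_iff]; intro k; simp [k] at hv]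
    have : ∀ v, (cut (fun v => v.1.1 < n) a).f v * x (e v) = a.f v * (if v ∈ B then 0 else w v) := by
      intro v
      by_cases k : v ∈ B
      · simp [k, ha v k]
      · simp [k, w]
    simp only [this]
    refine abs_le.mpr (abs_le_of_sq_le_sq' ((sum_mul_sq_le_sq_mul_sq _ _ _).trans ?_) (by positivity))
    rw [mul_pow, mul_comm]
    exact mul_le_mul (hB _) ((bdN a).sq_le _) (by positivity) (by positivity)
  rw [← cut_add (fun v => v.1.1 < n) a, map_add, cut_add]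
  refine (abs_add_le _ _).trans ?_
  nlinarith

lemma tailA {α : V → ℝ} {C : ℝ} (h : Bd α C) {ε : ℝ} (hε : 0 < ε) :
    ∃ B : Finset V, Bd (fun v => if v ∈ B then 0 else α v) (2 * ε) := by
  obtain ⟨_, ⟨𝒮, h𝒮, rfl⟩, h1⟩ := exists_lt_of_lt_csSup (J2_ne α) (sub_lt_self (J2 α) hε)
  obtain ⟨n, hn⟩ := lt_sup (𝒮.biUnion fun S => S)
  have high : Bd (fun v => if ¬ v.1.1 < n then α v else 0) ε := by
    intro 𝒯 h𝒯
    have := h.J2.idx (𝒮.disjSum 𝒯) (Sum.elim (fun S => S) fun T => T.filter fun v => ¬ v.1.1 < n)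
      (by
        rintro (S | T) hi
        · exact h𝒮.1 S (by simpa using hi)
        · exact (h𝒯.1 T (by simpa using hi)).filter (fun v : V => ¬ v.1.1 < n)
            fun u v w hu _ k _ => k.1 ▸ hu)
      (by
        rintro (S | T) hi (S' | T') hj k
        · exact h𝒮.2 S (by simpa using hi) S' (by simpa using hj) (by simpa using k)
        · exact disjoint_left.mpr fun v hv hv' => (mem_filter.mp hv').2
            (hn v (mem_biUnion.mpr ⟨S, by simpa using hi, hv⟩))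
        · exact disjoint_left.mpr fun v hv' hv => (mem_filter.mp hv').2
            (hn v (mem_biUnion.mpr ⟨S', by simpa using hj, hv⟩))
        · exact disjoint_filter_filter
            (h𝒯.2 T (by simpa using hi) T' (by simpa using hj) (by simpa using k)))
    rw [sum_disjSum] at this
    simp only [Sum.elim_inl, Sum.elim_inr, sum_filter] at this
    linarith
  obtain ⟨B, hB⟩ := vanish h.sq_le (ε := ε / (n + 1)) (by positivity)
  refine ⟨dn B, ?_⟩
  have low : Bd (fun v => if v.1.1 < n ∧ v ∉ dn B then α v else 0) (n * (ε / (n + 1))) :=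
    bd_low (fun v hv => by by_contra k; simp [k] at hv) fun s => le_trans (sum_le_sum fun v _ => by
      by_cases k : v ∈ B
      · simp [k, sub_dn k]
      · simp only [k, if_false]; split_ifs <;> simp [sq_nonneg]) (hB s)
  have := bd_orth (n := n) (fun v hv => by by_contra k; simp [k] at hv)
    (fun v hv => by simp [hv]) low
    (high.filter (· ∉ dn B) fun u v w hu _ k _ hv => hu (dn_down hv k))
  intro 𝒯 h𝒯
  refine le_trans (le_of_eq ?_) ((this 𝒯 h𝒯).trans ?_)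
  · refine sum_congr rfl fun T _ => congrArg (· ^ 2) (sum_congr rfl fun v _ => ?_)
    by_cases k : v ∈ dn B <;> by_cases k' : v.1.1 < n <;> simp [k, k']
  · have : (n : ℝ) * (ε / (n + 1)) ≤ ε := by
      rw [← mul_div_assoc, div_le_iff₀ (by positivity)]; nlinarith
    linarith

lemma small (ζ : StrongDual ℝ X) {ε : ℝ} (hε : 0 ≤ ε) (h : Bd (fun v => ζ (ev v)) (ε ^ 2)) :
    ‖ζ‖ ≤ ε := by
  refine ContinuousLinearMap.opNorm_le_bound _ hε fun z => le_of_forall_pos_le_add fun η hη => ?_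
  obtain ⟨B, hB⟩ := tailX z (ε := η / (2 * (‖ζ‖ + 1))) (by positivity)
  have h1 : ‖z - ∑ v ∈ dn B, z (e v) • ev v‖ ≤ 2 * (η / (2 * (‖ζ‖ + 1))) := by
    refine ContinuousLinearMap.opNorm_le_bound _ (by positivity) fun a => ?_
    have : (z - ∑ v ∈ dn B, z (e v) • ev v) a = z (cut (· ∉ dn B) a) := by
      conv_lhs => rw [_root_.sub_apply, ← cut_add (· ∈ dn B) a, map_add, cut_add]
      rw [expand z (cut (· ∈ dn B) a) (dn B) fun v hv => by by_contra k; simp [k] at hv]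
      simp only [_root_.sum_apply, _root_.smul_apply, ev_apply,
        smul_eq_mul]
      rw [sum_congr rfl (g := fun v => z (e v) * a.f v) fun v hv => by simp [hv, mul_comm]]
      ring
    rw [this]
    exact (hB _ fun v hv => by simp [sub_dn hv]).trans (mul_le_mul_of_nonneg_left
      (cut_le _ (fun u v w hu _ k _ hv => hu (dn_down hv k)) a) (by positivity))
  have h2 : ζ (∑ v ∈ dn B, z (e v) • ev v) = z (mk (dn B) fun v => ζ (ev v)) := by
    rw [expand z _ (dn B) fun v hv => by by_contra k; simp [k] at hv, map_sum]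
    exact sum_congr rfl fun v hv => by simp [hv, mul_comm]
  have h3 : ‖mk (dn B) fun v => ζ (ev v)‖ ≤ ε :=
    N_le hε (h.filter (· ∈ dn B) fun u v w _ hw _ k => dn_down hw k)
  have h4 := (ζ.le_opNorm _).trans (mul_le_mul_of_nonneg_left h1 (norm_nonneg _))
  have h5 := (z.le_opNorm _).trans (mul_le_mul_of_nonneg_left h3 (norm_nonneg _))
  rw [map_sub, h2] at h4
  have h6 : ‖ζ‖ * (2 * (η / (2 * (‖ζ‖ + 1)))) ≤ η := by
    rw [show ‖ζ‖ * (2 * (η / (2 * (‖ζ‖ + 1)))) = ‖ζ‖ * η / (‖ζ‖ + 1) by field_simp,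
      div_le_iff₀ (by positivity)]
    nlinarith
  have := norm_add_le (ζ z - z (mk (dn B) fun v => ζ (ev v))) (z (mk (dn B) fun v => ζ (ev v)))
  rw [sub_add_cancel] at this
  linarith

theorem reflexive : Function.Surjective (NormedSpace.inclusionInDoubleDual ℝ X) := by
  intro φ
  refine ⟨φ.comp (NormedSpace.inclusionInDoubleDual ℝ Y), ContinuousLinearMap.ext fun ξ => ?_⟩
  set x : X := φ.comp (NormedSpace.inclusionInDoubleDual ℝ Y) with hx
  change ξ x = φ ξ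
  refine eq_of_forall_dist_le fun η hη => ?_
  obtain ⟨ε, hε, hε2⟩ : ∃ ε > 0, ε * (‖x‖ + ‖φ‖) ≤ η := ⟨η / (‖x‖ + ‖φ‖ + 1), by positivity, by
    rw [div_mul_eq_mul_div, div_le_iff₀ (by positivity)]; nlinarith⟩
  obtain ⟨B, hB⟩ := tailA (α := fun v => ξ (ev v)) (C := ‖ξ‖ ^ 2)
    (fun 𝒮 h => sum_le_of_upper 𝒮 (fun S => S) h.1 h.2 ξ) (ε := ε ^ 2 / 2) (by positivity)
  have h1 := small (ξ - NormedSpace.inclusionInDoubleDual ℝ Y (mk B fun v => ξ (ev v))) hε.le (by
    convert hB using 1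
    · funext v
      change ξ (ev v) - (mk B fun v => ξ (ev v)).f v = _
      by_cases k : v ∈ B <;> simp [k]
    · ring)
  have h2 := (φ.le_opNorm _).trans (mul_le_mul_of_nonneg_left h1 (norm_nonneg _))
  have h3 := (ContinuousLinearMap.le_opNorm _ x).trans (mul_le_mul_of_nonneg_right h1 (norm_nonneg _))
  rw [map_sub] at h2
  change ‖ξ x - φ (NormedSpace.inclusionInDoubleDual ℝ Y (mk B fun v => ξ (ev v)))‖ ≤ _ at h3
  rw [Real.norm_eq_abs, abs_le] at h2 h3
  rw [Real.dist_eq, abs_le]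
  constructor <;> linarith [h2.1, h2.2, h3.1, h3.2]

end

end Vale.Agent.P069
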