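import Vale.Agent.P069.Dual

open Finset

namespace Vale.Agent.P069

noncomputable section
open Classical

variable (A : Finset V) (f g : V → ℝ)

def E (v : V) : Finset V := (D v).filter (· ∈ A)
def O (v : V) : Finset V := (D v).filter (· ∉ A)
def G (v : V) : ℝ := ∑ u ∈ O A v, g u
def R (T : Finset V) (b : V) : ℝ := ∑ u ∈ T.filter (b ≤ ·), f u
def hh (Φ : Finset V → ℝ → ℝ) (v : V) : ℝ :=
  if v ∈ A then 0 else Φ (E A v) (G A g v) - Φ (E A v) (G A g v - g v)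

variable {A f g} (hA : ∀ u v, v ∈ A → u ≤ v → u ∈ A)
include hA

lemma E_eq {u v : V} (h : u ≤ v) (hu : u ∉ A) : E A u = E A v := by
  ext w
  simp only [E, mem_filter, mem_D]
  exact ⟨fun k => ⟨k.1.trans h, k.2⟩, fun k => ⟨(tot k.1 h).elim id fun j => (hu (hA _ _ k.2 j)).elim,
    k.2⟩⟩

lemma segO {S : Finset V} (h : Seg S) : Seg (S.filter (· ∉ A)) :=
  h.filter _ fun _ _ _ hu _ k _ hv => hu (hA _ _ hv k)

lemma segI {S : Finset V} (h : Seg S) : Seg (S.filter (· ∈ A)) :=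
  h.filter _ fun _ _ _ _ hw _ k => hA _ _ hw k

lemma tele (Φ : Finset V → ℝ → ℝ) (m : V) (n : ℕ) : ∀ S : Finset V, S.card = n → Seg S →
    (∀ v ∈ S, v ∉ A) → (S.Nonempty → m ∈ S) → (∀ u ∈ S, u ≤ m) →
    ∑ v ∈ S, hh A g Φ v = Φ (E A m) (G A g m) - Φ (E A m) (G A g m - ∑ v ∈ S, g v) := by
  induction n with
  | zero => intro S h _ _ _ _; rw [card_eq_zero.mp h]; simp
  | succ n ih =>
    intro S h hS h1 h2 h3
    have hne : S.Nonempty := card_pos.mp (by omega)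
    obtain ⟨b, hb, hb'⟩ := hS.bot hne
    have e1 : S.filter (fun v => ¬ v ≤ b) = S.erase b := by
      ext v
      simp only [mem_filter, mem_erase]
      exact ⟨fun k => ⟨fun j => k.2 j.le, k.1⟩, fun k => ⟨k.2, fun j => k.1 (le_antisymm j (hb' v k.2))⟩⟩
    have e2 := ih (S.erase b) (by rw [card_erase_of_mem hb]; omega)
      (e1 ▸ hS.filter _ fun _ _ _ hu _ k _ hv => hu (k.trans hv))
      (fun v hv => h1 v (mem_of_mem_erase hv))
      (fun ⟨v, hv⟩ => mem_erase.mpr ⟨fun j => (mem_erase.mp hv).1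
        (le_antisymm (j ▸ h3 v (mem_of_mem_erase hv)) (hb' v (mem_of_mem_erase hv))), h2 hne⟩)
      (fun v hv => h3 v (mem_of_mem_erase hv))
    have e3 : G A g m = G A g b + ∑ v ∈ S.erase b, g v := by
      rw [G, G, ← sum_union]
      · refine sum_congr ?_ fun _ _ => rfl
        ext u
        rw [← e1]
        simp only [O, mem_filter, mem_D, mem_union]
        constructor
        · intro k
          by_cases j : u ≤ b
          · exact Or.inl ⟨j, k.2⟩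
          · exact Or.inr ⟨hS.2 b hb m (h2 hne) u ((tot k.1 (h3 b hb)).resolve_left j) k.1, j⟩
        · rintro (k | k)
          · exact ⟨k.1.trans (h3 b hb), k.2⟩
          · exact ⟨h3 u k.1, h1 u k.1⟩
      · rw [← e1]
        exact disjoint_left.mpr fun u hu hu' =>
          (mem_filter.mp hu').2 (mem_D.mp (mem_filter.mp hu).1)
    rw [← add_sum_erase S _ hb, ← add_sum_erase S g hb, e2, hh, if_neg (h1 b hb),
      E_eq hA (h3 b hb) (h1 b hb), e3]
    ring_nf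

lemma hh_le (Φ : Finset V → ℝ → ℝ) (hΦ : ∀ T a b, |Φ T a - Φ T b| ≤ |a - b|) {S : Finset V}
    (hS : Seg S) : (∑ v ∈ S, hh A g Φ v) ^ 2 ≤ (∑ v ∈ S.filter (· ∉ A), g v) ^ 2 := by
  rw [← sum_filter_of_ne (p := (· ∉ A)) fun v _ hv k => hv (by simp [hh, k])]
  rcases (S.filter (· ∉ A)).eq_empty_or_nonempty with k | k
  · simp [k]
  obtain ⟨m, hm, hm'⟩ := (segO hA hS).top k
  rw [tele hA Φ m _ _ rfl (segO hA hS) (fun v hv => (mem_filter.mp hv).2) (fun _ => hm) hm']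
  refine sq_le_sq.mpr ((hΦ _ _ _).trans (le_of_eq ?_))
  ring_nf

lemma hh_bd (Φ : Finset V → ℝ → ℝ) (hΦ : ∀ T a b, |Φ T a - Φ T b| ≤ |a - b|) (hg : Bd g 1) :
    Bd (hh A g Φ) 1 := fun 𝒮 h =>
  (sum_le_sum fun S hS => hh_le hA Φ hΦ (h.1 S hS)).trans (hg.idx 𝒮 _
    (fun S hS => segO hA (h.1 S hS)) fun S hS T hT k => disjoint_filter_filter (h.2 S hS T hT k))

lemma key (Φ : Finset V → ℝ → ℝ) (hΦ : ∀ T a b, |Φ T a - Φ T b| ≤ |a - b|) (h0 : ∀ T, Φ T 0 = 0)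
    (hg : Bd g 1) (hf : Bd f 1) (hfA : ∀ v, v ∉ A → f v = 0) {s : ℝ} (hs : 0 ≤ s)
    (σ M : Finset V → ℝ) (hσ : ∀ T, σ T = 1 ∨ σ T = -1) (hsg : ∀ T r, σ T * Φ T r ≤ 0)
    (hM : ∀ m ∉ A, |G A g m| ≤ M (E A m) ∧ ∃ m' ∉ A, E A m' = E A m ∧ M (E A m) = |G A g m'|)
    (hR : ∀ m, ∀ b ∈ E A m, σ (E A m) * R f (E A m) b < 0 → |R f (E A m) b| ≤ s * M (E A m) ∨
      ∃ c ∈ E A m, b ≤ c ∧ s * M (E A m) ≤ σ (E A m) * R f (E A m) c) :
    Bd (f + s • hh A g Φ) (1 + 3 * s ^ 2) := by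
  have seg : ∀ S : Finset V, ∃ P P' T : Finset V, Seg S → Seg P ∧ Seg P' ∧ P ⊆ S ∧ P' ⊆ S ∧
      Disjoint P P' ∧ Seg T ∧ (∀ u ∈ T, ∃ m ∈ S, ∃ a ∈ S, m ∉ A ∧ a ∈ A ∧ E A u = E A m) ∧
      (∑ v ∈ S, (f + s • hh A g Φ) v) ^ 2 ≤ (∑ v ∈ P, f v) ^ 2 + (∑ v ∈ P', f v) ^ 2 +
        s ^ 2 * (∑ v ∈ S, hh A g Φ v) ^ 2 + 2 * s ^ 2 * (∑ v ∈ T, g v) ^ 2 := by
    intro S
    by_cases hS : Seg S
    swap
    · exact ⟨∅, ∅, ∅, fun k => (hS k).elim⟩
    simp only [Pi.add_apply, Pi.smul_apply, smul_eq_mul, sum_add_distrib, ← mul_sum]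
    by_cases c0 : (∑ v ∈ S, f v) * ∑ v ∈ S, hh A g Φ v ≤ 0
    · refine ⟨S, ∅, ∅, fun _ => ⟨hS, seg_empty, Subset.rfl, empty_subset _, by simp, seg_empty,
        by simp, ?_⟩⟩
      simp only [sum_empty]
      nlinarith [mul_nonneg hs (neg_nonneg.mpr c0)]
    push Not at c0
    have n1 : (S.filter (· ∈ A)).Nonempty := by
      by_contra k
      rw [sum_eq_zero (f := f) fun v hv => hfA v fun j => k ⟨v, mem_filter.mpr ⟨hv, j⟩⟩] at c0
      simp at c0
    have n2 : (S.filter (· ∉ A)).Nonempty := by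
      by_contra k
      rw [sum_eq_zero (f := hh A g Φ) fun v hv => if_pos (by
        by_contra j; exact k ⟨v, mem_filter.mpr ⟨hv, j⟩⟩)] at c0
      simp at c0
    obtain ⟨a, ha⟩ := n1
    obtain ⟨ha, haA⟩ := mem_filter.mp ha
    obtain ⟨m, hm, hm'⟩ := hS.top ⟨a, ha⟩
    obtain ⟨b, hb, hb'⟩ := hS.bot ⟨a, ha⟩
    have hmA : m ∉ A := fun k => by
      obtain ⟨v, hv⟩ := n2
      exact (mem_filter.mp hv).2 (hA _ _ k (hm' v (mem_filter.mp hv).1))
    have hbA : b ∈ A := hA _ _ haA (hb' a ha)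
    have e1 : S.filter (· ∉ A) = O A m := by
      ext u
      simp only [O, mem_filter, mem_D]
      exact ⟨fun k => ⟨hm' u k.1, k.2⟩, fun k => ⟨hS.2 a ha m hm u
        ((tot (hm' a ha) k.1).elim id fun j => (k.2 (hA _ _ haA j)).elim) k.1, k.2⟩⟩
    have e2 : S.filter (· ∈ A) = (E A m).filter (b ≤ ·) := by
      ext u
      simp only [E, mem_filter, mem_D]
      exact ⟨fun k => ⟨⟨hm' u k.1, k.2⟩, hb' u k.1⟩, fun k => ⟨hS.2 b hb m hm u k.2 k.1.1, k.1.2⟩⟩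
    have e3 : ∑ v ∈ S, f v = R f (E A m) b := by
      rw [R, ← e2, sum_filter_of_ne fun v _ hv => by by_contra j; exact hv (hfA v j)]
    have e4 : ∑ v ∈ S, hh A g Φ v = Φ (E A m) (G A g m) := by
      rw [← sum_filter_of_ne (p := (· ∉ A)) fun v _ hv k => hv (by simp [hh, k]),
        tele hA Φ m _ _ rfl (segO hA hS) (fun v hv => (mem_filter.mp hv).2)
          (fun _ => mem_filter.mpr ⟨hm, hmA⟩) (fun u hu => hm' u (mem_filter.mp hu).1), e1,
        ← G, sub_self, h0, sub_zero]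
    obtain ⟨k1, m', k2, k3, k4⟩ := hM m hmA
    have k5 : |Φ (E A m) (G A g m)| ≤ M (E A m) := by
      have := hΦ (E A m) (G A g m) 0
      rw [h0, sub_zero, sub_zero] at this
      exact this.trans k1
    have k6 : (∑ v ∈ O A m', g v) ^ 2 = M (E A m) ^ 2 := by rw [k4, sq_abs, G]
    have hT : ∀ u ∈ O A m', ∃ m ∈ S, ∃ a ∈ S, m ∉ A ∧ a ∈ A ∧ E A u = E A m := fun u hu =>
      ⟨m, hm, a, ha, hmA, haA, (E_eq hA (mem_D.mp (mem_filter.mp hu).1)
        (mem_filter.mp hu).2).trans k3⟩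
    have k7 := hsg (E A m) (G A g m)
    have k8 := hR m b (by simp [E, hm' b hb, hbA])
    rw [e3, e4] at c0
    have k9 : σ (E A m) * R f (E A m) b < 0 := by
      rcases hσ (E A m) with j | j <;> rw [j] at k7 ⊢ <;> nlinarith
    have k10 : R f (E A m) b * Φ (E A m) (G A g m) ≤ |R f (E A m) b| * M (E A m) :=
      (le_abs_self _).trans (by rw [abs_mul]; gcongr)
    rcases k8 k9 with j | ⟨c, hc, hbc, j⟩
    · refine ⟨S, ∅, O A m', fun _ => ⟨hS, seg_empty, Subset.rfl, empty_subset _, by simp,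
        segO hA (seg_D _), hT, ?_⟩⟩
      rw [k6, e3, e4, sum_empty]
      have := mul_le_mul_of_nonneg_left (k10.trans (mul_le_mul_of_nonneg_right j
        ((abs_nonneg _).trans k5))) hs
      nlinarith
    · refine ⟨(S.filter (· ∈ A)).filter (fun v => ¬ c ≤ v), (S.filter (· ∈ A)).filter (c ≤ ·), O A m',
        fun _ => ⟨(segI hA hS).filter _ fun _ _ _ _ hw _ k hv => hw (hv.trans k),
        (segI hA hS).filter _ fun _ _ _ hu _ k _ => hu.trans k,
        (filter_subset _ _).trans (filter_subset _ _), (filter_subset _ _).trans (filter_subset _ _),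
        (disjoint_filter_filter_not _ _ _).symm, segO hA (seg_D _), hT, ?_⟩⟩
      have e5 : ∑ v ∈ (S.filter (· ∈ A)).filter (c ≤ ·), f v = R f (E A m) c := by
        rw [R, e2, filter_filter]
        exact sum_congr (filter_congr fun u _ => ⟨fun k => k.2, fun k => ⟨hbc.trans k, k⟩⟩)
          fun _ _ => rfl
      have e6 := sum_filter_add_sum_filter_not (S.filter (· ∈ A)) (c ≤ ·) f
      rw [e5, show ∑ v ∈ S.filter (· ∈ A), f v = R f (E A m) b by rw [R, e2]] at e6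
      rw [k6, e3, e4, e5, eq_sub_of_add_eq' e6]
      have := mul_le_mul_of_nonneg_left k10 hs
      have j2 := mul_le_mul_of_nonneg_left j (abs_nonneg (R f (E A m) b))
      have j3 : |R f (E A m) b| * (σ (E A m) * R f (E A m) c) = -(R f (E A m) b * R f (E A m) c) := by
        rcases hσ (E A m) with i | i <;> rw [i] at k9 ⊢
        · rw [abs_of_neg (by linarith)]; ring
        · rw [abs_of_pos (by linarith)]; ring
      nlinarith [sq_nonneg (R f (E A m) c), sq_nonneg (s * M (E A m))]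
  choose P P' T hP using seg
  intro 𝒮 h
  have q := fun S hS => hP S (h.1 S hS)
  have b1 := hf.idx (𝒮.disjSum 𝒮) (Sum.elim P P')
    (by
      rintro (S | S) hi
      · exact (q S (by simpa using hi)).1
      · exact (q S (by simpa using hi)).2.1)
    (by
      rintro (S | S) hi (S' | S') hj k <;> simp only [inl_mem_disjSum, inr_mem_disjSum] at hi hj
      · exact (h.2 S hi S' hj (by simpa using k)).mono (q S hi).2.2.1 (q S' hj).2.2.1
      · by_cases e : S = S'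
        · subst e; exact (q S hi).2.2.2.2.1
        · exact (h.2 S hi S' hj e).mono (q S hi).2.2.1 (q S' hj).2.2.2.1
      · by_cases e : S = S'
        · subst e; exact (q S hi).2.2.2.2.1.symm
        · exact (h.2 S hi S' hj e).mono (q S hi).2.2.2.1 (q S' hj).2.2.1
      · exact (h.2 S hi S' hj (by simpa using k)).mono (q S hi).2.2.2.1 (q S' hj).2.2.2.1)
  rw [sum_disjSum] at b1
  simp only [Sum.elim_inl, Sum.elim_inr] at b1
  have b2 := hh_bd hA Φ hΦ hg 𝒮 h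
  have b3 := hg.idx 𝒮 T (fun S hS => (q S hS).2.2.2.2.2.1) fun S hS S' hS' k =>
    disjoint_left.mpr fun u hu hu' => by
      obtain ⟨m, hm, a, ha, h1, h2, h3⟩ := (q S hS).2.2.2.2.2.2.1 u hu
      obtain ⟨m', hm', a', ha', h1', h2', h3'⟩ := (q S' hS').2.2.2.2.2.2.1 u hu'
      have i1 : a ≤ m := ((h.1 S hS).1 a ha m hm).elim id fun j => (h1 (hA _ _ h2 j)).elim
      have i2 : a' ≤ m' := ((h.1 S' hS').1 a' ha' m' hm').elim id fun j => (h1' (hA _ _ h2' j)).elim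
      have i3 : a' ∈ E A m := by rw [← h3, h3']; simp [E, i2, h2']
      have i4 : a ∈ E A m' := by rw [← h3', h3]; simp [E, i1, h2]
      have i5 := mem_D.mp (mem_filter.mp i3).1
      have i6 := mem_D.mp (mem_filter.mp i4).1
      rcases tot i1 i5 with j | j
      · exact disjoint_left.mp (h.2 S hS S' hS' k) ((h.1 S hS).2 a ha m hm a' j i5) ha'
      · exact disjoint_left.mp (h.2 S hS S' hS' k) ha ((h.1 S' hS').2 a' ha' m' hm' a j i6)
  refine (sum_le_sum fun S hS => (q S hS).2.2.2.2.2.2.2).trans ?_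
  simp only [sum_add_distrib, ← mul_sum]
  nlinarith [mul_le_mul_of_nonneg_left b2 (sq_nonneg s), mul_le_mul_of_nonneg_left b3 (sq_nonneg s)]

omit hA in
lemma ex_sigma (f : V → ℝ) (T : Finset V) (θ : ℝ) : ∃ σ : ℝ, (σ = 1 ∨ σ = -1) ∧ (Seg T →
    ∀ b ∈ T, σ * R f T b < 0 → |R f T b| ≤ θ ∨ ∃ c ∈ T, b ≤ c ∧ θ ≤ σ * R f T c) := by
  rcases (T.filter fun b => θ < |R f T b|).eq_empty_or_nonempty with k | k
  · exact ⟨1, Or.inl rfl, fun _ b hb _ => Or.inl (not_lt.mp (filter_eq_empty_iff.mp k hb))⟩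
  obtain ⟨c, hc, hx⟩ := exists_max_image _ (fun u : V => u.1.2.length) k
  obtain ⟨hc, hc'⟩ := mem_filter.mp hc
  have : ∀ σ : ℝ, σ * R f T c = |R f T c| → Seg T →
      ∀ b ∈ T, σ * R f T b < 0 → |R f T b| ≤ θ ∨ ∃ c ∈ T, b ≤ c ∧ θ ≤ σ * R f T c := by
    intro σ e hT b hb _
    by_cases j : θ < |R f T b|
    · refine Or.inr ⟨c, hc, (hT.1 b hb c hc).elim id fun i => (len_inj (Or.inl i)
        (le_antisymm i.2.length_le (hx b (mem_filter.mpr ⟨hb, j⟩)))).ge, e ▸ hc'.le⟩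
    · exact Or.inl (not_lt.mp j)
  rcases le_total 0 (R f T c) with j | j
  · exact ⟨1, Or.inl rfl, this 1 (by rw [abs_of_nonneg j, one_mul])⟩
  · exact ⟨-1, Or.inr rfl, this _ (by rw [abs_of_nonpos j]; ring)⟩

omit hA in
lemma ex_M (A : Finset V) (g : V →₀ ℝ) : ∃ M : Finset V → ℝ,
    ∀ m ∉ A, |G A g m| ≤ M (E A m) ∧ ∃ m' ∉ A, E A m' = E A m ∧ M (E A m) = |G A g m'| := by
  refine ⟨fun T => sSup {r | ∃ m' ∉ A, E A m' = T ∧ r = |G A g m'|}, fun m hm => ?_⟩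
  have hf : {r | ∃ m' ∉ A, E A m' = E A m ∧ r = |G A g m'|}.Finite := by
    refine ((g.support.powerset.image fun U => |∑ u ∈ U, g u|).finite_toSet).subset ?_
    rintro _ ⟨m', _, _, rfl⟩
    refine mem_coe.mpr (mem_image.mpr ⟨(O A m').filter (· ∈ g.support),
      mem_powerset.mpr fun u hu => (mem_filter.mp hu).2, ?_⟩)
    rw [sum_filter_of_ne fun v _ hv => Finsupp.mem_support_iff.mpr hv, G]
  have := Set.Nonempty.csSup_mem (s := {r | ∃ m' ∉ A, E A m' = E A m ∧ r = |G A g m'|})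
    ⟨_, m, hm, rfl, rfl⟩ hf
  exact ⟨le_csSup hf.bddAbove ⟨m, hm, rfl, rfl⟩, this⟩

/-- the splitting lemma -/
theorem split (f g : Y) (hf : ‖f‖ ≤ 1) (hg : ‖g‖ ≤ 1) (hfA : ∀ v, v ∉ A → f.f v = 0)
    (hgA : ∀ v ∈ A, g.f v = 0) {s : ℝ} (hs : 0 ≤ s) : ∃ h h' : Y, h - h' = g ∧
      (∀ v ∈ A, h.f v = 0) ∧ (∀ v ∈ A, h'.f v = 0) ∧ ‖h‖ ≤ 1 ∧ ‖h'‖ ≤ 1 ∧
      ‖f + s • h‖ ≤ 1 + 2 * s ^ 2 ∧ ‖f + s • h'‖ ≤ 1 + 2 * s ^ 2 := by
  obtain ⟨M, hM⟩ := ex_M A g.f
  choose σ hσ hR using fun T => ex_sigma f.f T (s * M T)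
  have bf : Bd f.f 1 := fun 𝒮 h => (bdN f 𝒮 h).trans (by nlinarith [norm_nonneg f])
  have bg : Bd g.f 1 := fun 𝒮 h => (bdN g 𝒮 h).trans (by nlinarith [norm_nonneg g])
  have gen : ∀ Φ : Finset V → ℝ → ℝ, (∀ T a b, |Φ T a - Φ T b| ≤ |a - b|) → (∀ T, Φ T 0 = 0) →
      (∀ T r, σ T * Φ T r ≤ 0) → ∃ h : Y, (∀ v, h.f v = hh A g.f Φ v) ∧ (∀ v ∈ A, h.f v = 0) ∧
        ‖h‖ ≤ 1 ∧ ‖f + s • h‖ ≤ 1 + 2 * s ^ 2 := by
    intro Φ h1 h2 h3
    have e : ∀ v, (mk g.f.support (hh A g.f Φ)).f v = hh A g.f Φ v := fun v => by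
      rw [mk_f]
      split_ifs with k
      · rfl
      · simp [hh, Finsupp.notMem_support_iff.mp k]
    refine ⟨_, e, fun v hv => by rw [e, hh, if_pos hv], N_le one_pos.le ?_, N_le (by positivity) ?_⟩
    · rw [funext e, one_pow]; exact hh_bd hA Φ h1 bg
    · have := key hA Φ h1 h2 bg bf hfA hs σ M hσ h3 hM fun m => hR _ (segI hA (seg_D m))
      rw [← funext e] at this
      exact fun 𝒮 h => (this 𝒮 h).trans (by nlinarith [sq_nonneg s, sq_nonneg (s ^ 2)])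
  obtain ⟨h, a1, a2, a3, a4⟩ := gen (fun T r => σ T * min (σ T * r) 0)
    (fun T a b => by
      rcases hσ T with i | i <;> rw [i] <;> simp only [min_def] <;> split_ifs <;>
        cases abs_cases (a - b) <;> rw [abs_le] <;> constructor <;> linarith)
    (by simp) (fun T r => by nlinarith [mul_self_nonneg (σ T), min_le_right (σ T * r) 0])
  obtain ⟨h', b1, b2, b3, b4⟩ := gen (fun T r => -(σ T * max (σ T * r) 0))
    (fun T a b => by
      rcases hσ T with i | i <;> rw [i] <;> simp only [max_def] <;> split_ifs <;>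
        cases abs_cases (a - b) <;> rw [abs_le] <;> constructor <;> linarith)
    (by simp) (fun T r => by nlinarith [mul_self_nonneg (σ T), le_max_right (σ T * r) 0])
  refine ⟨h, h', Finsupp.ext fun v => ?_, a2, b2, a3, b3, a4, b4⟩
  change h.f v - h'.f v = g.f v
  rw [a1, b1, hh, hh]
  split_ifs with k
  · simp [hgA v k]
  · rcases hσ (E A v) with i | i <;> rw [i] <;> simp only [min_def, max_def] <;> split_ifs <;>
      linarith

end

end Vale.Agent.P069
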