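import Vale.Agent.P069.Key

open Finset Filter Topology

namespace Vale.Agent.P069

noncomputable section
open Classical

theorem amuc {t : ℝ} (ht : 0 < t) : ∃ δ > 0, ∀ x : X, ‖x‖ = 1 → ∃ F : Submodule ℝ X,
    IsClosed (F : Set X) ∧ FiniteDimensional ℝ (X ⧸ F) ∧
      ∀ y ∈ F, ‖y‖ = 1 → δ ≤ max ‖x + t • y‖ ‖x - t • y‖ - 1 := by
  obtain ⟨s, s0, s1, s2⟩ : ∃ s : ℝ, 0 < s ∧ s ≤ 1 ∧ 16 * s ≤ t :=
    ⟨min 1 (t / 16), by positivity, min_le_left _ _, by linarith [min_le_right 1 (t / 16)]⟩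
  refine ⟨t * s / 48, by positivity, fun x hx => ?_⟩
  obtain ⟨ε, ε0, ε1, ε2⟩ : ∃ ε : ℝ, 0 < ε ∧ ε ≤ 1 ∧ 64 * ε ≤ t * s :=
    ⟨min 1 (t * s / 64), by positivity, min_le_left _ _, by linarith [min_le_right 1 (t * s / 64)]⟩
  have norming : ∀ z : X, ∀ r : ℝ, r < ‖z‖ → ∃ a : Y, ‖a‖ ≤ 1 ∧ r < z a := fun z r hr => by
    obtain ⟨a, h1, h2⟩ := z.exists_lt_apply_of_lt_opNorm hr
    rcases abs_cases (z a) with k | k
    · exact ⟨a, h1.le, k.1 ▸ h2⟩
    · exact ⟨-a, by simpa using h1.le, by rw [map_neg]; exact k.1 ▸ h2⟩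
  obtain ⟨B, hB⟩ := tailX x ε0
  obtain ⟨f, f1, f2⟩ := norming x (1 - ε) (by linarith)
  set A := dn (B ∪ f.f.support) with hA
  let L : X →L[ℝ] (A → ℝ) :=
    ContinuousLinearMap.pi fun v => NormedSpace.inclusionInDoubleDual ℝ Y (e v)
  refine ⟨L.ker, L.isClosed_ker, (L : X →ₗ[ℝ] (A → ℝ)).quotKerEquivRange.symm.finiteDimensional,
    fun y hy hy1 => ?_⟩
  have hy0 : ∀ a : Y, (∀ v, v ∉ A → a.f v = 0) → y a = 0 := fun a ha => by
    rw [expand y a A fun v hv => by by_contra k; exact hv (ha v k)]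
    refine sum_eq_zero fun v hv => ?_
    have : y (e v) = 0 := congrFun (LinearMap.mem_ker.mp hy) ⟨v, hv⟩
    simp [this]
  obtain ⟨g, g1, g2⟩ := norming y (1 / 2) (by linarith)
  have hfA : ∀ v, v ∉ A → f.f v = 0 := fun v hv => by
    by_contra k; exact hv (sub_dn (mem_union_right _ (Finsupp.mem_support_iff.mpr k)))
  obtain ⟨h, h', k0, k1, k2, k3, k4, k5, k6⟩ := split (A := A) (fun u v hv k => dn_down hv k) f
    (cut (· ∉ A) g) f1 ((cut_le _ (fun u v w hu _ k _ hv => hu (dn_down hv k)) g).trans g1) hfA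
    (fun v hv => by simp [hv]) s0.le
  have g3 : y g = y h - y h' := by
    rw [← map_sub, k0]
    conv_lhs => rw [← cut_add (· ∈ A) g, map_add, hy0 _ fun v hv => by simp [hv], zero_add]
  have x1 := abs_le.mp (hB h fun v hv => k1 v (sub_dn (mem_union_left _ hv)))
  have x2 := abs_le.mp (hB h' fun v hv => k2 v (sub_dn (mem_union_left _ hv)))
  have y1 := (le_abs_self _).trans ((x + t • y).le_opNorm (f + s • h))
  have y2 := (le_abs_self _).trans ((x - t • y).le_opNorm (f + s • h'))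
  simp only [_root_.add_apply, _root_.sub_apply, _root_.smul_apply, map_add, map_smul, smul_eq_mul,
    hy0 f hfA] at y1 y2
  have z1 := mul_le_mul (le_max_left ‖x + t • y‖ ‖x - t • y‖) k5 (norm_nonneg _)
    (le_max_of_le_left (norm_nonneg _))
  have z2 := mul_le_mul (le_max_right ‖x + t • y‖ ‖x - t • y‖) k6 (norm_nonneg _)
    (le_max_of_le_left (norm_nonneg _))
  generalize max ‖x + t • y‖ ‖x - t • y‖ = m at *
  have w1 : -(2 * ε) ≤ s * x h := by nlinarith [mul_le_mul_of_nonneg_left k3 ε0.le]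
  have w2 : -(2 * ε) ≤ s * x h' := by nlinarith [mul_le_mul_of_nonneg_left k4 ε0.le]
  have w3 : t * s * (1 / 2) ≤ t * s * (y h - y h') := by gcongr; linarith
  have w4 : 1 - 3 * ε + t * s / 4 ≤ m * (1 + 2 * s ^ 2) := by nlinarith
  by_contra hc
  push Not at hc
  have w5 : m * (1 + 2 * s ^ 2) ≤ (1 + t * s / 48) * (1 + 2 * s ^ 2) := by gcongr; linarith
  have w6 : t * s * s ^ 2 ≤ t * s * 1 := by gcongr; nlinarith
  nlinarith [mul_pos ht s0]

def kid (v : V) (hv : v.1.2.length < v.1.1) (j : ℕ) : V := ⟨(v.1.1, v.1.2 ++ [j]), by simpa using hv⟩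

lemma D_kid (v : V) (hv : v.1.2.length < v.1.1) (j : ℕ) :
    ∑ u ∈ D (kid v hv j), ev u = ∑ u ∈ D v, ev u + ev (kid v hv j) := by
  have h1 : kid v hv j ∉ D v := fun k => by
    have := (mem_D.mp k).2.length_le
    simp [kid] at this
  rw [add_comm, ← sum_insert h1]
  refine sum_congr ?_ fun _ _ => rfl
  ext u
  simp only [mem_D, mem_insert]
  constructor
  · intro k
    rcases List.prefix_concat_iff.mp k.2 with i | i
    · exact Or.inl (Subtype.ext (Prod.ext k.1 i))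
    · exact Or.inr ⟨k.1, i⟩
  · rintro (rfl | k)
    · exact le_rfl
    · exact ⟨k.1, k.2.trans (List.prefix_append _ _)⟩

lemma e_le (v : V) : ‖e v‖ ≤ 1 := N_le one_pos.le fun 𝒮 h => by
  have : ∀ S : Finset V, (∑ u ∈ S, (e v).f u) ^ 2 = if v ∈ S then 1 else 0 := fun S => by
    change (∑ u ∈ S, (Finsupp.single v (1 : ℝ)) u) ^ 2 = _
    simp [Finsupp.single_apply]
  simp only [this, sum_boole, one_pow]
  exact Nat.cast_le_one.mpr (card_le_one.mpr fun S hS T hT => by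
    by_contra k
    exact disjoint_left.mp (h.2 S (mem_filter.mp hS).1 T (mem_filter.mp hT).1 k)
      (mem_filter.mp hS).2 (mem_filter.mp hT).2)

lemma one_le {S : Finset V} {v : V} (h : v ∈ S) : 1 ≤ ‖∑ u ∈ S, ev u‖ := by
  have := (le_abs_self _).trans ((∑ u ∈ S, ev u).le_opNorm (e v))
  have e1 : (∑ u ∈ S, ev u) (e v) = 1 := by
    rw [_root_.sum_apply]
    change ∑ u ∈ S, (Finsupp.single v (1 : ℝ)) u = 1
    simp [Finsupp.single_apply, h]
  nlinarith [e_le v, norm_nonneg (∑ u ∈ S, ev u)]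

lemma le_one (v : V) : ‖∑ u ∈ D v, ev u‖ ≤ 1 :=
  ContinuousLinearMap.opNorm_le_bound _ one_pos.le fun a => by
    rw [_root_.sum_apply, one_mul]; exact seg_le (seg_D v) a

lemma near_gen {Z : Type} [NormedAddCommGroup Z] [NormedSpace ℝ Z] (z : ℕ → Z)
    (weak : ∀ ξ : StrongDual ℝ Z, Tendsto (fun j => ξ (z j)) atTop (𝓝 0))
    (F : Submodule ℝ Z) (hF : IsClosed (F : Set Z))
    [FiniteDimensional ℝ (Z ⧸ F)] {η : ℝ} (hη : 0 < η) : ∃ j, ∃ y ∈ F, ‖z j - y‖ < η := by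
  let T : (Z ⧸ F) ≃L[ℝ] (Fin (Module.finrank ℝ (Z ⧸ F)) → ℝ) :=
    ContinuousLinearEquiv.ofFinrankEq (by simp)
  let π : Z →L[ℝ] Z ⧸ F := ⟨F.mkQ, continuous_quot_mk⟩
  have h1 : Tendsto (fun j => T (π (z j))) atTop (𝓝 0) :=
    tendsto_pi_nhds.mpr fun i => by
      have := weak ((ContinuousLinearMap.proj (R := ℝ) (φ := fun _ => ℝ) i).comp
        ((T : (Z ⧸ F) →L[ℝ] _).comp π))
      exact this
  have h2 := (T.symm.continuous.tendsto 0).comp h1
  simp only [Function.comp_def, T.symm_apply_apply, map_zero] at h2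
  obtain ⟨j, hj⟩ := ((tendsto_zero_iff_norm_tendsto_zero.mp h2).eventually
    (gt_mem_nhds (half_pos hη))).exists
  obtain ⟨m, h3, h4⟩ := Submodule.Quotient.norm_mk_lt (π (z j)) (half_pos hη)
  refine ⟨j, z j - m, (Submodule.Quotient.eq F).mp h3.symm, ?_⟩
  rw [sub_sub_cancel]
  linarith

lemma near (v : V) (hv : v.1.2.length < v.1.1) (F : Submodule ℝ X) (hF : IsClosed (F : Set X))
    [FiniteDimensional ℝ (X ⧸ F)] {η : ℝ} (hη : 0 < η) :
    ∃ j, ∃ y ∈ F, ‖ev (kid v hv j) - y‖ < η := by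
  have weak : ∀ ξ : StrongDual ℝ X, Tendsto (fun j => ξ (ev (kid v hv j))) atTop (𝓝 0) := by
    intro ξ
    have h1 : Summable fun j => ξ (ev (kid v hv j)) ^ 2 :=
      summable_of_sum_le (fun _ => sq_nonneg _) (c := ‖ξ‖ ^ 2) fun s => by
        simpa using sum_le_of_upper s (fun j => {kid v hv j}) (fun _ _ => seg_single _)
          (fun i _ j _ k => by
            rw [disjoint_singleton]
            intro e
            exact k (by simpa [kid] using congrArg (fun u : V => u.1.2) e)) ξ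
    have h2 := h1.tendsto_atTop_zero.sqrt
    simp only [Real.sqrt_sq_eq_abs, Real.sqrt_zero] at h2
    exact (tendsto_zero_iff_abs_tendsto_zero _).mpr h2
  exact near_gen _ weak F hF hη

theorem not_auc (N : Seminorm ℝ X) {a b : ℝ} (ha : 0 < a) (h1 : ∀ x, a * ‖x‖ ≤ N x)
    (h2 : ∀ x, N x ≤ b * ‖x‖) (H : ∀ t : ℝ, 0 < t → ∃ δ > 0, ∀ x : X, N x = 1 → ∃ F : Submodule ℝ X,
      IsClosed (F : Set X) ∧ FiniteDimensional ℝ (X ⧸ F) ∧
        ∀ y ∈ F, N y = 1 → δ ≤ N (x + t • y) - 1) : False := by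
  have lo : ∀ v, a ≤ N (∑ u ∈ D v, ev u) := fun v => le_trans
    (le_mul_of_one_le_right ha.le (one_le (mem_D.mpr le_rfl))) (h1 _)
  have hb : 0 < b := by
    have := (lo ⟨(0, []), le_rfl⟩).trans (h2 _)
    by_contra k
    nlinarith [norm_nonneg (∑ u ∈ D ⟨(0, []), le_rfl⟩, ev u)]
  have hi : ∀ v, N (∑ u ∈ D v, ev u) ≤ b := fun v => (h2 _).trans
    (mul_le_of_le_one_right hb.le (le_one v))
  obtain ⟨δ, δ0, hδ⟩ := H (a / (2 * b)) (by positivity)
  have step : ∀ (v : V) (hv : v.1.2.length < v.1.1), ∃ j,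
      N (∑ u ∈ D v, ev u) + a * δ / 2 ≤ N (∑ u ∈ D (kid v hv j), ev u) := by
    intro v hv
    have l1 := lo v
    have l2 := hi v
    simp only [D_kid]
    generalize ∑ u ∈ D v, ev u = w at *
    have w0 : 0 < N w := by linarith
    obtain ⟨F, F1, F2, F3⟩ := hδ ((N w)⁻¹ • w) (by
      rw [map_smul_eq_mul, Real.norm_eq_abs, abs_of_pos (by positivity)]; field_simp)
    obtain ⟨j, y, hy, hj⟩ := near v hv F F1 (η := min (1 / 2) (a * δ / (2 * b))) (by positivity)
    refine ⟨j, ?_⟩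
    have z1 : 1 ≤ ‖ev (kid v hv j)‖ := by simpa using one_le (mem_singleton_self (kid v hv j))
    generalize ev (kid v hv j) = z at *
    have y1 : 1 / 2 ≤ ‖y‖ := by
      linarith [norm_sub_norm_le z y, min_le_left (1 / 2) (a * δ / (2 * b))]
    have y2 : a / 2 ≤ N y := by nlinarith [h1 y]
    have y3 : 0 < N y := by linarith
    have y4 := F3 ((N y)⁻¹ • y) (F.smul_mem _ hy) (by
      rw [map_smul_eq_mul, Real.norm_eq_abs, abs_of_pos (by positivity)]; field_simp)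
    obtain ⟨θ, hθ⟩ : ∃ θ, θ = N w * (a / (2 * b)) / N y := ⟨_, rfl⟩
    have θ0 : 0 < θ := by rw [hθ]; positivity
    have θ1 : θ ≤ 1 := by
      rw [hθ, div_le_one y3]
      calc N w * (a / (2 * b)) ≤ b * (a / (2 * b)) := by gcongr
        _ = a / 2 := by field_simp
        _ ≤ _ := y2
    have e1 : (N w)⁻¹ • w + (a / (2 * b)) • (N y)⁻¹ • y =
        (N w)⁻¹ • (θ • (w + y) + (1 - θ) • w) := by
      rw [hθ]
      match_scalars <;> field_simp <;> ring
    rw [e1, map_smul_eq_mul, Real.norm_eq_abs, abs_of_pos (by positivity)] at y4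
    have y5 := map_add_le_add N (θ • (w + y)) ((1 - θ) • w)
    rw [map_smul_eq_mul, map_smul_eq_mul, Real.norm_eq_abs, Real.norm_eq_abs, abs_of_pos θ0,
      abs_of_nonneg (by linarith)] at y5
    have y6 : (1 + δ) * N w ≤ N (θ • (w + y) + (1 - θ) • w) := by
      rw [← le_div_iff₀ w0, div_eq_inv_mul]; linarith
    have y7 : δ * N w ≤ N (w + y) - N w := by
      have : 0 < θ * (N (w + y) - N w) := by nlinarith [mul_pos δ0 w0]
      have : 0 < N (w + y) - N w := by by_contra k; nlinarith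
      nlinarith
    have y8 := map_add_le_add N (w + z) (y - z)
    rw [show w + z + (y - z) = w + y by abel] at y8
    have y9 : N (y - z) ≤ a * δ / 2 := by
      calc _ ≤ b * ‖y - z‖ := h2 _
        _ ≤ b * (a * δ / (2 * b)) := by
          rw [norm_sub_rev]; gcongr; exact hj.le.trans (min_le_right _ _)
        _ = _ := by field_simp
    nlinarith
  have grow : ∀ n k, k ≤ n → ∃ v : V, v.1.1 = n ∧ v.1.2.length = k ∧
      k * (a * δ / 2) ≤ N (∑ u ∈ D v, ev u) := by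
    intro n k
    induction k with
    | zero => exact fun _ => ⟨⟨(n, []), by simp⟩, rfl, rfl, by simp⟩
    | succ k ih =>
      intro hk
      obtain ⟨v, v1, v2, v3⟩ := ih (by omega)
      obtain ⟨j, hj⟩ := step v (by omega)
      exact ⟨kid v (by omega) j, v1, by simp [kid, v2], by push_cast; linarith⟩
  obtain ⟨n, hn⟩ := exists_nat_gt (b / (a * δ / 2))
  obtain ⟨v, _, _, hv⟩ := grow n n le_rfl
  rw [div_lt_iff₀ (by positivity)] at hn
  linarith [hi v]

end

end Vale.Agent.P069
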